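import Vale.Agent.P329.FinalE

/-!
# P329: generalized star height at most one for groups with an abelian normal subgroup whose
quotient is an elementary abelian `p`-group
-/

namespace Vale.Agent.Results.P329.ElementaryQuotient

open Vale.Agent.P329

/-- Let `G` be a finite group, `p` a prime and `N` an abelian normal subgroup such that `G / N` is
an elementary abelian `p`-group (every commutator and every `p`-th power lies in `N`). Then every
language recognized by `G` has generalized star height at most one. -/
theorem result {G α : Type} [Group G] [Finite G] [Finite α] (p : ℕ) [Fact p.Prime]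
    (N : Subgroup G) [N.Normal] (hN : ∀ x ∈ N, ∀ y ∈ N, x * y = y * x)
    (hc : ∀ g h : G, g * h * g⁻¹ * h⁻¹ ∈ N) (hpow : ∀ g : G, g ^ p ∈ N)
    (φ : α → G) (S : Set G) :
    ∃ E : GRE α, E.sh ≤ 1 ∧ E.lang = ({w | (w.map φ).prod ∈ S} : Language α) :=
  main_elem p N hN hc hpow φ S

end Vale.Agent.Results.P329.ElementaryQuotient
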