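import Vale.Agent.P329.Final

/-!
# P329: generalized star height at most one when all letters but one lie in an abelian normal
subgroup
-/

namespace Vale.Agent.Results.P329.OneLetterOutside

open Vale.Agent.P329

/-- A language recognized by a morphism into a finite group `G` that sends all letters except
possibly one into an abelian normal subgroup of `G` has generalized star height at most one. -/
theorem result {G α : Type} [Group G] [Finite G] [Finite α] (N : Subgroup G) [N.Normal]
    (hN : ∀ x ∈ N, ∀ y ∈ N, x * y = y * x) (φ : α → G) (b : α)
    (hφ : ∀ a, a ≠ b → φ a ∈ N) (S : Set G) :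
    ∃ E : GRE α, E.sh ≤ 1 ∧ E.lang = ({w | (w.map φ).prod ∈ S} : Language α) :=
  main N hN φ b hφ S

end Vale.Agent.Results.P329.OneLetterOutside
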