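import Vale.Agent.P329.Final2

/-!
# P329: generalized star height at most one when every letter is mapped into an abelian normal
subgroup or to one fixed group element
-/

namespace Vale.Agent.Results.P329.OneValueOutside

open Vale.Agent.P329

/-- A language recognized by a morphism into a finite group `G` that sends every letter into an
abelian normal subgroup or to one fixed element `g` has generalized star height at most one. -/
theorem result {G α : Type} [Group G] [Finite G] [Finite α] (N : Subgroup G) [N.Normal]
    (hN : ∀ x ∈ N, ∀ y ∈ N, x * y = y * x) (φ : α → G) (g : G)
    (hφ : ∀ a, φ a ∈ N ∨ φ a = g) (S : Set G) :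
    ∃ E : GRE α, E.sh ≤ 1 ∧ E.lang = ({w | (w.map φ).prod ∈ S} : Language α) :=
  main2 N hN φ g hφ S

end Vale.Agent.Results.P329.OneValueOutside
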