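import Vale.Agent.P329.AllMain

/-!
# P329: generalized star height at most one for groups with an abelian normal subgroup of prime
index
-/

namespace Vale.Agent.Results.P329.PrimeQuotient

open Vale.Agent.P329

/-- Every language recognized by a finite group that has an abelian normal subgroup of prime index
has generalized star height at most one. -/
theorem result {G α : Type} [Group G] [Finite G] [Finite α] (p : ℕ) [Fact p.Prime]
    (N : Subgroup G) [N.Normal] (hN : ∀ x ∈ N, ∀ y ∈ N, x * y = y * x) (hp : N.index = p)
    (φ : α → G) (S : Set G) :
    ∃ E : GRE α, E.sh ≤ 1 ∧ E.lang = ({w | (w.map φ).prod ∈ S} : Language α) :=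
  main_prime p N hN hp φ S

end Vale.Agent.Results.P329.PrimeQuotient
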