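import Vale.Agent.P329.Final3

/-!
# P329: generalized star height at most one, subdirect product form
-/

namespace Vale.Agent.Results.P329.SeveralQuotients

open Vale.Agent.P329

/-- Let `f i : G →* H i` be a jointly injective finite family of homomorphisms such that for every
`i` the composite letter map sends every letter into an abelian normal subgroup of `H i` or to one
fixed element of `H i`. Then every language recognized by `φ : α → G` has generalized star height
at most one. -/
theorem result {ι G α : Type} [Finite ι] [Group G] [Finite G] [Finite α] (H : ι → Type)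
    [∀ i, Group (H i)] [∀ i, Finite (H i)] (f : ∀ i, G →* H i)
    (hf : ∀ x : G, (∀ i, f i x = 1) → x = 1) (N : ∀ i, Subgroup (H i)) [∀ i, (N i).Normal]
    (hN : ∀ i, ∀ x ∈ N i, ∀ y ∈ N i, x * y = y * x) (φ : α → G) (g : ∀ i, H i)
    (hφ : ∀ i a, f i (φ a) ∈ N i ∨ f i (φ a) = g i) (S : Set G) :
    ∃ E : GRE α, E.sh ≤ 1 ∧ E.lang = ({w | (w.map φ).prod ∈ S} : Language α) :=
  main3 H f hf N hN φ g hφ S

end Vale.Agent.Results.P329.SeveralQuotients
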